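import Vale.Agent.Results.P295.FirstVenereauPencil

/-!
# P295: Venereau-type coordinates `y + 2 a x v - a^2 x^2 w` with `a = A(x, w)` arbitrary

With `p = y u + z^2`, `v = x z + y p`, `w = x^2 u - 2 x z p - y p^2`, the locally nilpotent
derivation `D = 2 x v d/dy - x w d/dv` of `C[x, y, z, u]` kills `x` and `w`, so `A(x, w) D` is
locally nilpotent as well.  Its exponential is an automorphism over `C[x]` with
`y -> y + 2 a x v - a^2 x^2 w`, `v -> v - a x w`, `w -> w`, where `a = A(x, w)`.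
-/

namespace Vale.Agent.Results.P295.A_ParabolaFamily

open MvPolynomial
open Vale.Agent.Results.P295.VenereauIdeal
open Vale.Agent.Results.P295.FirstVenereauPencil (IsCoord isCoord_map hwv)

noncomputable section

def Ya (a : R) : R := y + 2 * a * x * v - a ^ 2 * x ^ 2 * w
def Va (a : R) : R := v - a * x * w
def Za (a : R) : R := z - a * w - 2 * a * v * p + a ^ 2 * x * w * p
def Ua (a : R) : R := u - 2 * a * p * (x * u - z * p) + a ^ 2 * w * p ^ 2

def psiHom (a : R) : R →ₐ[ℂ] R := mk (Ya a) (Za a) (Ua a)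

lemma psiHom_x (a : R) : psiHom a x = x := mk_x _ _ _
lemma psiHom_y (a : R) : psiHom a y = Ya a := mk_y _ _ _

lemma psiHom_vw (a : R) : psiHom a v = Va a ∧ psiHom a w = w := by
  apply mk_spec (P := p)
  · simp only [Ya, Va]
    linear_combination (-1 : R) * hq
  · simp only [Ya, Va, Za]
    linear_combination hz
  · simp only [Ya, Va, Ua]
    linear_combination hu + 2 * a * x * p * hwv

/-- the value `A(x, w)` of a polynomial in two variables -/
def ev (A : MvPolynomial (Fin 2) ℂ) : R := aeval ![x, w] A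

lemma psiHom_ev (a : R) (A : MvPolynomial (Fin 2) ℂ) : psiHom a (ev A) = ev A := by
  rw [ev, comp_aeval_apply]
  congr 2
  funext i
  fin_cases i
  · exact psiHom_x a
  · exact (psiHom_vw a).2

lemma ev_neg (A : MvPolynomial (Fin 2) ℂ) : ev (-A) = -(ev A) := by simp [ev]

lemma psiHom_comp_neg (A : MvPolynomial (Fin 2) ℂ) :
    (psiHom (-(ev A))).comp (psiHom (ev A)) = AlgHom.id ℂ R := by
  obtain ⟨hv, hw⟩ := psiHom_vw (ev A)
  obtain ⟨hv', hw'⟩ := psiHom_vw (-(ev A))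
  have ha := psiHom_ev (-(ev A)) A
  apply rigid
  · simp only [AlgHom.comp_apply, psiHom_x]
  · simp only [AlgHom.comp_apply, psiHom_y]
    simp only [Ya, map_add, map_sub, map_mul, map_pow, map_ofNat, psiHom_x, psiHom_y, hv', hw', ha]
    simp only [Va]
    ring
  · simp only [AlgHom.comp_apply, hv]
    simp only [Va, map_sub, map_mul, psiHom_x, hv', hw', ha]
    ring
  · simp only [AlgHom.comp_apply, hw, hw']

def psi (A : MvPolynomial (Fin 2) ℂ) : R ≃ₐ[ℂ] R :=
  AlgEquiv.ofAlgHom (psiHom (ev A)) (psiHom (-(ev A)))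
    (by have := psiHom_comp_neg (-A); rwa [ev_neg, neg_neg] at this) (psiHom_comp_neg A)

lemma psi_x (A : MvPolynomial (Fin 2) ℂ) : psi A x = x := psiHom_x _
lemma psi_y (A : MvPolynomial (Fin 2) ℂ) : psi A y = Ya (ev A) := psiHom_y _
lemma psi_v (A : MvPolynomial (Fin 2) ℂ) : psi A v = Va (ev A) := (psiHom_vw _).1
lemma psi_w (A : MvPolynomial (Fin 2) ℂ) : psi A w = w := (psiHom_vw _).2
lemma psi_ev (A : MvPolynomial (Fin 2) ℂ) : psi A (ev A) = ev A := psiHom_ev _ _

/-- `A(x, w)` as an abstract polynomial in the three variables `(x, v, w)` -/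
def lift3 (A : MvPolynomial (Fin 2) ℂ) : MvPolynomial (Fin 3) ℂ := aeval ![X 0, X 2] A

/-- the substitution `v -> v + A(x, w) x w` on abstract polynomials in `(x, v, w)` -/
def sub3 (A : MvPolynomial (Fin 2) ℂ) : MvPolynomial (Fin 3) ℂ →ₐ[ℂ] MvPolynomial (Fin 3) ℂ :=
  aeval ![X 0, X 1 + lift3 A * X 0 * X 2, X 2]

lemma aeval_lift3 (V : R) (A : MvPolynomial (Fin 2) ℂ) :
    aeval ![x, V, w] (lift3 A) = ev A := by
  rw [lift3, comp_aeval_apply, ev]
  congr 2
  funext i
  fin_cases i <;> simp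

lemma aeval_sub3 (A : MvPolynomial (Fin 2) ℂ) (T : MvPolynomial (Fin 3) ℂ) :
    aeval ![x, Va (ev A), w] (sub3 A T) = aeval ![x, v, w] T := by
  rw [sub3, comp_aeval_apply]
  congr 2
  funext i
  fin_cases i
  · simp
  · show aeval ![x, Va (ev A), w] (X 1 + lift3 A * X 0 * X 2) = v
    rw [map_add, map_mul, map_mul, aeval_lift3, aeval_X, aeval_X, aeval_X]
    simp [Va]
  · simp

lemma psi_aeval (A : MvPolynomial (Fin 2) ℂ) (S : MvPolynomial (Fin 3) ℂ) :
    psi A (aeval ![x, v, w] S) = aeval ![x, Va (ev A), w] S := by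
  have := comp_aeval_apply ![x, v, w] (psi A : R →ₐ[ℂ] R) S
  rw [AlgEquiv.coe_toAlgHom] at this
  rw [this]
  congr 2
  funext i
  fin_cases i
  · exact psi_x A
  · exact psi_v A
  · exact psi_w A

theorem family (A : MvPolynomial (Fin 2) ℂ) (T₁ T₂ : MvPolynomial (Fin 3) ℂ) :
    ∃ φ : R ≃ₐ[ℂ] R, φ x = x ∧
      φ y = y + 2 * ev A * x * v - ev A ^ 2 * x ^ 2 * w
        + x ^ 2 * v * aeval ![x, v, w] T₁ + x ^ 3 * aeval ![x, v, w] T₂ := by
  obtain ⟨φ₀, h0, h1⟩ := VenereauIdeal.result (sub3 A T₁)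
    (sub3 A T₂ + lift3 A * X 2 * sub3 A T₁)
  refine ⟨φ₀.trans (psi A), ?_, ?_⟩
  · rw [AlgEquiv.trans_apply]
    have : φ₀ x = x := h0
    rw [this, psi_x]
  · rw [AlgEquiv.trans_apply]
    have : φ₀ y = _ := h1
    rw [this]
    simp only [map_add, map_mul, map_pow, psi_x, psi_y, psi_v, psi_aeval, aeval_sub3, aeval_lift3, psi_ev]
    simp only [aeval_X, Ya, Va]
    simp only [Matrix.cons_val]
    ring

theorem offParabola (A : MvPolynomial (Fin 2) ℂ) (k : ℂ) (hk : k ≠ 0) :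
    IsCoord (y + 2 * ev A * x * v - ev A ^ 2 * x ^ 2 * w + C k * x ^ 2 * w)
      ↔ IsCoord (y + x * v) := by
  have h1 : psi A (y + C k * x ^ 2 * w)
      = y + 2 * ev A * x * v - ev A ^ 2 * x ^ 2 * w + C k * x ^ 2 * w := by
    have hc : psi A (C k) = C k := (psi A).commutes k
    simp only [map_add, map_mul, map_pow, psi_x, psi_y, psi_w, hc, Ya]
  rw [← h1, isCoord_map]
  have := FirstVenereauPencil.result.2.2.1 0 k (by simpa using hk)
  simpa using this

theorem result :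
    (∀ (A : MvPolynomial (Fin 2) ℂ) (T₁ T₂ : MvPolynomial (Fin 3) ℂ),
      ∃ φ : R ≃ₐ[ℂ] R, φ x = x ∧
        φ y = y + 2 * aeval ![x, w] A * x * v - (aeval ![x, w] A) ^ 2 * x ^ 2 * w
          + x ^ 2 * v * aeval ![x, v, w] T₁ + x ^ 3 * aeval ![x, v, w] T₂) ∧
    (∀ (A : MvPolynomial (Fin 2) ℂ) (k : ℂ), k ≠ 0 →
      (IsCoord (y + 2 * aeval ![x, w] A * x * v - (aeval ![x, w] A) ^ 2 * x ^ 2 * w
          + C k * x ^ 2 * w) ↔ IsCoord (y + x * v))) :=
  ⟨family, offParabola⟩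

end

end Vale.Agent.Results.P295.A_ParabolaFamily
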