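import Vale.Agent.Results.P295.VenereauIdeal

/-!
# P295: the pencil `y + l x v + m x^2 w` through the first Venereau polynomial

With `p = y u + z^2`, `v = x z + y p`, `w = x^2 u - 2 x z p - y p^2` (so `y w + v^2 = x^2 p`), the
triangular derivation `D = x v d/dy - (x/2) w d/dv` of `C[x, 1/x][y, v, w]` kills `w` and
`y w + v^2` and maps `C[x, y, z, u]` into itself.  Its exponentials are automorphisms `phi l` of
`C[x, y, z, u]` over `C[x]` with `y -> y + l x v - (l^2/4) x^2 w`, `v -> v - (l/2) x w`, `w -> w`.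
Together with the diagonal automorphisms `y -> b y`, `z -> z / b`, `u -> u / b^3` they show:

* `y + l x v - (l^2/4) x^2 w` is a coordinate;
* all other members `y + l x v + m x^2 w` of the pencil are equivalent, up to a nonzero constant
  factor, to the first Venereau polynomial `y + x v`.
-/

namespace Vale.Agent.Results.P295.FirstVenereauPencil

open MvPolynomial
open Vale.Agent.Results.P295.VenereauIdeal

noncomputable section

/-- `f` is a coordinate of `C[x, y, z, u]`: some automorphism maps the variable `y` to `f`. -/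
def IsCoord (f : R) : Prop := ∃ φ : R ≃ₐ[ℂ] R, φ y = f

def Yl (l : ℂ) : R := y + C l * x * v - C (l ^ 2 / 4) * x ^ 2 * w
def Vl (l : ℂ) : R := v - C (l / 2) * x * w
def Zl (l : ℂ) : R := z - C (l / 2) * w - C l * v * p + C (l ^ 2 / 4) * x * w * p
def Ul (l : ℂ) : R := u - C l * p * (x * u - z * p) + C (l ^ 2 / 4) * w * p ^ 2

lemma e1 (l : ℂ) : (C l : R) = 2 * C (l / 2) := by
  have : (2 : R) = C 2 := (map_ofNat C 2).symm
  rw [this, ← C_mul]; congr 1; ring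

lemma e2 (l : ℂ) : (C (l ^ 2 / 4) : R) = C (l / 2) ^ 2 := by
  rw [← C_pow]; congr 1; ring

lemma hwv : w + v * p = x * (x * u - z * p) := by simp only [v, w]; ring

def phiHom (l : ℂ) : R →ₐ[ℂ] R := mk (Yl l) (Zl l) (Ul l)

lemma phiHom_x (l : ℂ) : phiHom l x = x := mk_x _ _ _
lemma phiHom_y (l : ℂ) : phiHom l y = Yl l := mk_y _ _ _

lemma phiHom_vw (l : ℂ) : phiHom l v = Vl l ∧ phiHom l w = w := by
  apply mk_spec (P := p)
  · simp only [Yl, Vl, e1 l, e2 l]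
    linear_combination (-1 : R) * hq
  · simp only [Yl, Vl, Zl, e1 l, e2 l]
    linear_combination hz
  · simp only [Yl, Vl, Ul, e1 l, e2 l]
    linear_combination hu + 2 * C (l / 2) * x * p * hwv

lemma neg_half (l : ℂ) : (C (-l / 2) : R) = - C (l / 2) := by
  rw [← C_neg]; congr 1; ring

lemma phiHom_comp_neg (l : ℂ) : (phiHom (-l)).comp (phiHom l) = AlgHom.id ℂ R := by
  obtain ⟨hv, hw⟩ := phiHom_vw l
  obtain ⟨hv', hw'⟩ := phiHom_vw (-l)
  apply rigid
  · simp only [AlgHom.comp_apply, phiHom_x]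
  · simp only [AlgHom.comp_apply, phiHom_y]
    simp only [Yl, map_add, map_sub, map_mul, map_pow, algHom_C, algebraMap_eq, phiHom_x, phiHom_y, hv', hw']
    simp only [Yl, Vl, e1 l, e2 l, e1 (-l), e2 (-l), neg_half]
    ring
  · simp only [AlgHom.comp_apply, hv]
    simp only [Vl, map_sub, map_mul, algHom_C, algebraMap_eq, phiHom_x, hv', hw']
    simp only [Vl, neg_half]
    ring
  · simp only [AlgHom.comp_apply, hw, hw']

def phi (l : ℂ) : R ≃ₐ[ℂ] R :=
  AlgEquiv.ofAlgHom (phiHom l) (phiHom (-l))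
    (by have := phiHom_comp_neg (-l); rwa [neg_neg] at this) (phiHom_comp_neg l)

lemma phi_x (l : ℂ) : phi l x = x := phiHom_x l
lemma phi_y (l : ℂ) : phi l y = Yl l := phiHom_y l
lemma phi_v (l : ℂ) : phi l v = Vl l := (phiHom_vw l).1
lemma phi_w (l : ℂ) : phi l w = w := (phiHom_vw l).2

/-- the diagonal endomorphism `y -> b y`, `z -> b' z`, `u -> b'^3 u` -/
def sHom (b b' : ℂ) : R →ₐ[ℂ] R := mk (C b * y) (C b' * z) (C b' ^ 3 * u)

lemma sHom_x (b b' : ℂ) : sHom b b' x = x := mk_x _ _ _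
lemma sHom_y (b b' : ℂ) : sHom b b' y = C b * y := mk_y _ _ _

lemma hC {b b' : ℂ} (h : b * b' = 1) : (C b : R) * C b' = 1 := by
  rw [← C_mul, h, C_1]

lemma sHom_vw {b b' : ℂ} (h : b * b' = 1) :
    sHom b b' v = C b' * v ∧ sHom b b' w = C b' ^ 3 * w := by
  have hB := hC (b := b) (b' := b') h
  apply mk_spec (P := C b' ^ 2 * p)
  · linear_combination (-(C b' ^ 2 : R)) * hq - (C b' ^ 2 * y * w) * hB
  · linear_combination (C b' : R) * hz + (C b' * y * p) * hB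
  · linear_combination (C b' ^ 3 : R) * hu + (C b' ^ 3 * y * p ^ 2) * hB

lemma sHom_comp {b b' : ℂ} (h : b * b' = 1) :
    (sHom b' b).comp (sHom b b') = AlgHom.id ℂ R := by
  have h' : b' * b = 1 := by rw [mul_comm]; exact h
  have hB := hC (b := b) (b' := b') h
  obtain ⟨hv, hw⟩ := sHom_vw h
  obtain ⟨hv', hw'⟩ := sHom_vw h'
  apply rigid
  · simp only [AlgHom.comp_apply, sHom_x]
  · simp only [AlgHom.comp_apply, sHom_y, map_mul, algHom_C, algebraMap_eq]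
    linear_combination y * hB
  · simp only [AlgHom.comp_apply, hv, map_mul, algHom_C, algebraMap_eq, hv']
    linear_combination v * hB
  · simp only [AlgHom.comp_apply, hw, map_mul, map_pow, algHom_C, algebraMap_eq, hw']
    linear_combination (w * ((C b * C b') ^ 2 + C b * C b' + 1)) * hB

def sig (b b' : ℂ) (h : b * b' = 1) : R ≃ₐ[ℂ] R :=
  AlgEquiv.ofAlgHom (sHom b b') (sHom b' b)
    (sHom_comp (by rw [mul_comm]; exact h)) (sHom_comp h)

lemma sig_x (b b' : ℂ) (h : b * b' = 1) : sig b b' h x = x := sHom_x b b'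
lemma sig_y (b b' : ℂ) (h : b * b' = 1) : sig b b' h y = C b * y := sHom_y b b'
lemma sig_w (b b' : ℂ) (h : b * b' = 1) : sig b b' h w = C b' ^ 3 * w := (sHom_vw h).2

lemma phi_pencil (l k : ℂ) :
    phi l (y + C k * x ^ 2 * w) = y + C l * x * v + C (k - l ^ 2 / 4) * x ^ 2 * w := by
  simp only [map_add, map_mul, map_pow, phi_x, phi_y, phi_w, AlgEquiv.commutes, Yl, C_sub]
  have : ∀ c : ℂ, phi l (C c) = C c := fun c => (phi l).commutes c
  simp only [this]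
  ring

theorem equiv_first (l m : ℂ) (hk : m + l ^ 2 / 4 ≠ 0) :
    ∃ (φ : R ≃ₐ[ℂ] R) (b : ℂ), b ≠ 0 ∧ φ x = x ∧
      φ (y + x * v) = C b * (y + C l * x * v + C m * x ^ 2 * w) := by
  obtain ⟨k, hkdef⟩ : ∃ k : ℂ, k = m + l ^ 2 / 4 := ⟨_, rfl⟩
  rw [← hkdef] at hk
  obtain ⟨g, hg⟩ := IsAlgClosed.exists_pow_nat_eq (4 * k) (n := 4) (by norm_num)
  have hg0 : g ≠ 0 := by
    rintro rfl
    apply hk
    have : (0 : ℂ) = 4 * k := by simpa using hg
    linear_combination (-1 / 4 : ℂ) * this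
  have hbb : g⁻¹ * g = 1 := inv_mul_cancel₀ hg0
  refine ⟨(phi 1).symm.trans ((sig g⁻¹ g hbb).trans (phi l)), g⁻¹, inv_ne_zero hg0, ?_, ?_⟩
  · simp only [AlgEquiv.trans_apply]
    have : (phi 1).symm x = x := by
      rw [AlgEquiv.symm_apply_eq, phi_x]
    rw [this, sig_x, phi_x]
  · simp only [AlgEquiv.trans_apply]
    have h1 : (phi 1).symm (y + x * v) = y + C (1 / 4) * x ^ 2 * w := by
      rw [AlgEquiv.symm_apply_eq, phi_pencil]
      have : ((1 : ℂ) / 4 - 1 ^ 2 / 4) = 0 := by norm_num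
      rw [this]
      simp
    rw [h1]
    have hc : ∀ c : ℂ, sig g⁻¹ g hbb (C c) = C c := fun c => (sig g⁻¹ g hbb).commutes c
    have h2 : sig g⁻¹ g hbb (y + C (1 / 4) * x ^ 2 * w)
        = C g⁻¹ * (y + C k * x ^ 2 * w) := by
      simp only [map_add, map_mul, map_pow, sig_x, sig_y, sig_w, hc]
      have hB := hC (b := g⁻¹) (b' := g) hbb
      have h4 : (C (1 / 4) : R) * C g ^ 4 = C k := by
        rw [← C_pow, ← C_mul, hg]; congr 1; ring
      linear_combination (-(C (1 / 4) * C g ^ 3 * x ^ 2 * w : R)) * hB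
        + (C g⁻¹ * x ^ 2 * w) * h4
    rw [h2]
    have hc' : ∀ c : ℂ, phi l (C c) = C c := fun c => (phi l).commutes c
    have hm : k - l ^ 2 / 4 = m := by rw [hkdef]; ring
    rw [map_mul, hc', phi_pencil, hm]

lemma isCoord_map (Φ : R ≃ₐ[ℂ] R) (f : R) : IsCoord (Φ f) ↔ IsCoord f := by
  constructor
  · rintro ⟨φ, hφ⟩
    exact ⟨φ.trans Φ.symm, by simp [AlgEquiv.trans_apply, hφ]⟩
  · rintro ⟨φ, hφ⟩
    exact ⟨φ.trans Φ, by simp [AlgEquiv.trans_apply, hφ]⟩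

lemma isCoord_smul {b : ℂ} (hb : b ≠ 0) (f : R) : IsCoord (C b * f) ↔ IsCoord f := by
  have key : ∀ (c : ℂ), c ≠ 0 → ∀ g : R, IsCoord g → IsCoord (C c * g) := by
    rintro c hc g ⟨φ, hφ⟩
    refine ⟨(sig c c⁻¹ (mul_inv_cancel₀ hc)).trans φ, ?_⟩
    have : φ (C c) = C c := φ.commutes c
    rw [AlgEquiv.trans_apply, sig_y, map_mul, this, hφ]
  constructor
  · intro h
    have := key b⁻¹ (inv_ne_zero hb) _ h
    rwa [← mul_assoc, ← C_mul, inv_mul_cancel₀ hb, C_1, one_mul] at this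
  · exact key b hb f

/-- the substitution `v -> v + c x w` on abstract polynomials in `(x, v, w)` -/
def sub3 (c : ℂ) : MvPolynomial (Fin 3) ℂ →ₐ[ℂ] MvPolynomial (Fin 3) ℂ :=
  aeval ![X 0, X 1 + C c * X 0 * X 2, X 2]

lemma aeval_sub3 (l : ℂ) (T : MvPolynomial (Fin 3) ℂ) :
    aeval ![x, Vl l, w] (sub3 (l / 2) T) = aeval ![x, v, w] T := by
  rw [sub3, comp_aeval_apply]
  congr 2
  funext i
  fin_cases i
  · simp
  · simp [Vl]
  · simp

lemma phi_aeval (l : ℂ) (S : MvPolynomial (Fin 3) ℂ) :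
    phi l (aeval ![x, v, w] S) = aeval ![x, Vl l, w] S := by
  have := comp_aeval_apply ![x, v, w] (phi l : R →ₐ[ℂ] R) S
  rw [AlgEquiv.coe_toAlgHom] at this
  rw [this]
  congr 2
  funext i
  fin_cases i
  · exact phi_x l
  · exact phi_v l
  · exact phi_w l

theorem family (l : ℂ) (T₁ T₂ : MvPolynomial (Fin 3) ℂ) :
    ∃ φ : R ≃ₐ[ℂ] R, φ x = x ∧
      φ y = y + C l * x * v - C (l ^ 2 / 4) * x ^ 2 * w
        + x ^ 2 * v * aeval ![x, v, w] T₁ + x ^ 3 * aeval ![x, v, w] T₂ := by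
  obtain ⟨φ₀, h0, h1⟩ := VenereauIdeal.result (sub3 (l / 2) T₁)
    (sub3 (l / 2) T₂ + C (l / 2) * X 2 * sub3 (l / 2) T₁)
  refine ⟨φ₀.trans (phi l), ?_, ?_⟩
  · rw [AlgEquiv.trans_apply]
    have : φ₀ x = x := h0
    rw [this, phi_x]
  · rw [AlgEquiv.trans_apply]
    have : φ₀ y = _ := h1
    rw [this]
    simp only [map_add, map_mul, map_pow, phi_x, phi_y, phi_v, phi_aeval, aeval_sub3]
    simp only [aeval_C, aeval_X, algebraMap_eq, Yl, Vl]
    simp only [Matrix.cons_val]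
    ring

theorem result :
    (∀ l : ℂ, ∃ φ : R ≃ₐ[ℂ] R, φ x = x ∧ φ y = y + C l * x * v - C (l ^ 2 / 4) * x ^ 2 * w) ∧
    (∀ l m : ℂ, m + l ^ 2 / 4 ≠ 0 → ∃ (φ : R ≃ₐ[ℂ] R) (b : ℂ), b ≠ 0 ∧ φ x = x ∧
      φ (y + x * v) = C b * (y + C l * x * v + C m * x ^ 2 * w)) ∧
    (∀ l m : ℂ, m + l ^ 2 / 4 ≠ 0 →
      (IsCoord (y + C l * x * v + C m * x ^ 2 * w) ↔ IsCoord (y + x * v))) ∧
    (IsCoord (y + x ^ 2 * w) ↔ IsCoord (y + x * v)) ∧
    (∀ (l : ℂ) (T₁ T₂ : MvPolynomial (Fin 3) ℂ), ∃ φ : R ≃ₐ[ℂ] R, φ x = x ∧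
      φ y = y + C l * x * v - C (l ^ 2 / 4) * x ^ 2 * w
        + x ^ 2 * v * aeval ![x, v, w] T₁ + x ^ 3 * aeval ![x, v, w] T₂) := by
  have h3 : ∀ l m : ℂ, m + l ^ 2 / 4 ≠ 0 →
      (IsCoord (y + C l * x * v + C m * x ^ 2 * w) ↔ IsCoord (y + x * v)) := by
    intro l m hk
    obtain ⟨φ, b, hb, -, hφ⟩ := equiv_first l m hk
    rw [← isCoord_map φ (y + x * v), hφ, isCoord_smul hb]
  refine ⟨fun l => ⟨phi l, phi_x l, phi_y l⟩, equiv_first, h3, ?_, family⟩
  have := h3 0 1 (by norm_num)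
  simpa using this

end

end Vale.Agent.Results.P295.FirstVenereauPencil
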