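import Mathlib

namespace Vale.Agent.Results.P295.VenereauIdeal

open MvPolynomial

noncomputable section

abbrev R := MvPolynomial (Fin 4) ℂ

def x : R := X 0
def y : R := X 1
def z : R := X 2
def u : R := X 3
def p : R := y * u + z ^ 2
def v : R := x * z + y * p
def w : R := x ^ 2 * u - 2 * x * z * p - y * p ^ 2

lemma hq : y * w + v ^ 2 = x ^ 2 * p := by
  simp only [v, w]; ring_nf
  simp only [p]; ring

lemma hz : x * z = v - y * p := by simp only [v]; ring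

lemma hu : x ^ 2 * u = w + 2 * v * p - y * p ^ 2 := by simp only [v, w]; ring

lemma x_ne : x ≠ 0 := X_ne_zero 0

/-- the endomorphism determined by the images of `x, y, z, u` -/
def mk (Y Z U : R) : R →ₐ[ℂ] R := aeval ![x, Y, Z, U]

lemma mk_x (Y Z U : R) : mk Y Z U x = x := by simp [mk, x]
lemma mk_y (Y Z U : R) : mk Y Z U y = Y := by simp [mk, y]
lemma mk_z (Y Z U : R) : mk Y Z U z = Z := by simp [mk, z]
lemma mk_u (Y Z U : R) : mk Y Z U u = U := by simp [mk, u]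

lemma mk_spec {Y V W P Z U : R} (hP : x ^ 2 * P = Y * W + V ^ 2) (hZ : x * Z = V - Y * P)
    (hU : x ^ 2 * U = W + 2 * V * P - Y * P ^ 2) :
    mk Y Z U v = V ∧ mk Y Z U w = W := by
  have hp : mk Y Z U p = P := by
    have h1 : mk Y Z U p = Y * U + Z ^ 2 := by
      simp only [p, map_add, map_mul, map_pow, mk_y, mk_z, mk_u]
    rw [h1]
    have hx2 : x ^ 2 ≠ 0 := pow_ne_zero 2 x_ne
    apply mul_left_cancel₀ hx2
    linear_combination Y * hU + (x * Z + V - Y * P) * hZ - hP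
  constructor
  · simp only [v, map_add, map_mul, mk_x, mk_y, mk_z, hp]
    linear_combination hZ
  · simp only [w, map_sub, map_mul, map_pow, mk_x, mk_y, mk_z, mk_u, hp, map_ofNat]
    linear_combination hU - 2 * P * hZ

lemma rigid (Ψ : R →ₐ[ℂ] R) (h0 : Ψ x = x) (h1 : Ψ y = y) (h2 : Ψ v = v) (h3 : Ψ w = w) :
    Ψ = AlgHom.id ℂ R := by
  have hx2 : x ^ 2 ≠ 0 := pow_ne_zero 2 x_ne
  have hp : Ψ p = p := by
    apply mul_left_cancel₀ hx2
    have := congrArg Ψ hq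
    simp only [map_add, map_mul, map_pow, h0, h1, h2, h3] at this
    rw [← this, hq]
  have hzz : Ψ z = z := by
    apply mul_left_cancel₀ x_ne
    have := congrArg Ψ hz
    simp only [map_sub, map_mul, h0, h1, h2, hp] at this
    rw [this, hz]
  have huu : Ψ u = u := by
    apply mul_left_cancel₀ hx2
    have := congrArg Ψ hu
    simp only [map_add, map_sub, map_mul, map_pow, h0, h1, h2, h3, hp, map_ofNat] at this
    rw [this, hu]
  apply MvPolynomial.algHom_ext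
  intro i
  fin_cases i
  · exact h0
  · exact h1
  · exact hzz
  · exact huu

/-- evaluation of abstract variables `(X 0, X 1, X 2, X 3)` at `(x, y, v, w)` -/
def ev : R →ₐ[ℂ] R := aeval ![x, y, v, w]

lemma ev0 : ev (X 0) = x := by simp [ev]
lemma ev1 : ev (X 1) = y := by simp [ev]
lemma ev2 : ev (X 2) = v := by simp [ev]
lemma ev3 : ev (X 3) = w := by simp [ev]

def q0 : R := X 1 * X 3 + X 2 ^ 2

lemma ev_q0 : ev q0 = x ^ 2 * p := by
  simp only [q0, map_add, map_mul, map_pow, ev1, ev2, ev3, hq]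

/-- `Θ` fixes `X 0`, is the identity modulo `X 0 ^ 2`, and moves the quadratic form `q0` by
`X 0 ^ 2 * e` modulo `X 0 ^ 2 * (X 0, q0)`. -/
structure Dfc (Θ : R ≃ₐ[ℂ] R) (e : R) : Prop where
  fix0 : Θ (X 0) = X 0
  cong : ∀ f, (X 0 : R) ^ 2 ∣ Θ f - f
  dfc : ∃ α β, Θ q0 - q0 = X 0 ^ 2 * (e + X 0 * α + q0 * β)

lemma exists_hom {Θ : R ≃ₐ[ℂ] R} (h : Dfc Θ 0) :
    ∃ Φ : R →ₐ[ℂ] R, Φ.comp ev = ev.comp (Θ : R →ₐ[ℂ] R) := by
  obtain ⟨Y2, hY⟩ := h.cong (X 1)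
  obtain ⟨V2, hV⟩ := h.cong (X 2)
  obtain ⟨W2, hW⟩ := h.cong (X 3)
  obtain ⟨α, β, hd⟩ := h.dfc
  have hY' : ev (Θ (X 1)) = y + x ^ 2 * ev Y2 := by
    have := congrArg ev hY
    simp only [map_sub, map_mul, map_pow, ev0, ev1] at this
    linear_combination this
  have hV' : ev (Θ (X 2)) = v + x ^ 2 * ev V2 := by
    have := congrArg ev hV
    simp only [map_sub, map_mul, map_pow, ev0, ev2] at this
    linear_combination this
  have hW' : ev (Θ (X 3)) = w + x ^ 2 * ev W2 := by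
    have := congrArg ev hW
    simp only [map_sub, map_mul, map_pow, ev0, ev3] at this
    linear_combination this
  have hd' : ev (Θ (X 1)) * ev (Θ (X 3)) + ev (Θ (X 2)) ^ 2
      = x ^ 2 * p + x ^ 2 * (x * ev α + x ^ 2 * p * ev β) := by
    have := congrArg ev hd
    simp only [map_sub, map_mul, map_pow, map_add, ev0, ev_q0, zero_add] at this
    have h2 : ev (Θ q0) = ev (Θ (X 1)) * ev (Θ (X 3)) + ev (Θ (X 2)) ^ 2 := by
      simp only [q0, map_add, map_mul, map_pow]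
    rw [← h2]
    linear_combination this
  set ρ : R := ev α + x * p * ev β with hρ
  set P : R := p + x * ρ with hPdef
  set Y : R := ev (Θ (X 1)) with hYdef
  set V : R := ev (Θ (X 2)) with hVdef
  set W : R := ev (Θ (X 3)) with hWdef
  set Z : R := z + x * ev V2 - y * ρ - x * ev Y2 * P with hZdef
  set U : R := u + ev W2 + 2 * ρ * z + 2 * ev V2 * P - y * ρ ^ 2 - ev Y2 * P ^ 2 with hUdef
  have hP : x ^ 2 * P = Y * W + V ^ 2 := by
    rw [hd', hPdef, hρ]; ring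
  have hZ : x * Z = V - Y * P := by
    rw [hV', hY', hZdef, hPdef]
    linear_combination hz
  have hU : x ^ 2 * U = W + 2 * V * P - Y * P ^ 2 := by
    rw [hV', hY', hW', hUdef, hPdef]
    linear_combination hu + 2 * x * ρ * hz
  obtain ⟨e1, e2⟩ := mk_spec hP hZ hU
  refine ⟨mk Y Z U, ?_⟩
  apply MvPolynomial.algHom_ext
  intro i
  fin_cases i
  · simp [ev0, mk_x, h.fix0]
  · simp [ev1, mk_y, hYdef]
  · simp [ev2, e1, hVdef]
  · simp [ev3, e2, hWdef]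

lemma exists_equiv {Θ : R ≃ₐ[ℂ] R} (h : Dfc Θ 0) (h' : Dfc Θ.symm 0) :
    ∃ φ : R ≃ₐ[ℂ] R, φ x = x ∧ φ y = ev (Θ (X 1)) := by
  obtain ⟨Φ, hΦ⟩ := exists_hom h
  obtain ⟨Φ', hΦ'⟩ := exists_hom h'
  have key : ∀ f, Φ (ev f) = ev (Θ f) := fun f => by
    have := congrArg (fun g : R →ₐ[ℂ] R => g f) hΦ
    simpa using this
  have key' : ∀ f, Φ' (ev f) = ev (Θ.symm f) := fun f => by
    have := congrArg (fun g : R →ₐ[ℂ] R => g f) hΦ'
    simpa using this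
  have c1 : ∀ f, (Φ'.comp Φ) (ev f) = ev f := fun f => by
    simp [key, key']
  have c2 : ∀ f, (Φ.comp Φ') (ev f) = ev f := fun f => by
    simp [key, key']
  have i1 : Φ'.comp Φ = AlgHom.id ℂ R :=
    rigid _ (by rw [← ev0]; exact c1 _) (by rw [← ev1]; exact c1 _) (by rw [← ev2]; exact c1 _)
      (by rw [← ev3]; exact c1 _)
  have i2 : Φ.comp Φ' = AlgHom.id ℂ R :=
    rigid _ (by rw [← ev0]; exact c2 _) (by rw [← ev1]; exact c2 _) (by rw [← ev2]; exact c2 _)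
      (by rw [← ev3]; exact c2 _)
  refine ⟨AlgEquiv.ofAlgHom Φ Φ' i2 i1, ?_, ?_⟩
  · change Φ x = x
    rw [← ev0, key, h.fix0]
  · change Φ y = _
    rw [← ev1, key]

lemma Dfc.refl : Dfc AlgEquiv.refl 0 :=
  ⟨rfl, fun f => by simp, ⟨0, 0, by simp⟩⟩

/-- first `Θ₂`, then `Θ₁` -/
lemma Dfc.trans {Θ₁ Θ₂ : R ≃ₐ[ℂ] R} {e₁ e₂ : R} (h₁ : Dfc Θ₁ e₁) (h₂ : Dfc Θ₂ e₂) :
    Dfc (Θ₂.trans Θ₁) (e₁ + e₂) := by
  refine ⟨by simp [h₁.fix0, h₂.fix0], fun f => ?_, ?_⟩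
  · have a := h₁.cong (Θ₂ f)
    have b := h₂.cong f
    have : (Θ₂.trans Θ₁) f - f = (Θ₁ (Θ₂ f) - Θ₂ f) + (Θ₂ f - f) := by simp
    rw [this]
    exact dvd_add a b
  · obtain ⟨α₁, β₁, d₁⟩ := h₁.dfc
    obtain ⟨α₂, β₂, d₂⟩ := h₂.dfc
    obtain ⟨k, hk⟩ := h₁.cong e₂
    have d₂' := congrArg Θ₁ d₂
    simp only [map_sub, map_mul, map_pow, map_add, h₁.fix0] at d₂'
    refine ⟨α₁ + Θ₁ α₂ + X 0 * k + X 0 * (e₁ + X 0 * α₁ + q0 * β₁) * Θ₁ β₂, β₁ + Θ₁ β₂, ?_⟩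
    have : (Θ₂.trans Θ₁) q0 = Θ₁ (Θ₂ q0) := rfl
    rw [this]
    linear_combination d₂' + (1 + X 0 ^ 2 * Θ₁ β₂) * d₁ + X 0 ^ 2 * hk

lemma Dfc.symm {Θ : R ≃ₐ[ℂ] R} {e : R} (h : Dfc Θ e) : Dfc Θ.symm (-e) := by
  have f0 : Θ.symm (X 0) = X 0 := by
    rw [AlgEquiv.symm_apply_eq, h.fix0]
  have cg : ∀ f, (X 0 : R) ^ 2 ∣ Θ.symm f - f := fun f => by
    obtain ⟨k, hk⟩ := h.cong (Θ.symm f)
    rw [AlgEquiv.apply_symm_apply] at hk
    exact ⟨-k, by linear_combination -hk⟩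
  refine ⟨f0, cg, ?_⟩
  obtain ⟨α, β, d⟩ := h.dfc
  obtain ⟨k, hk⟩ := cg e
  obtain ⟨k', hk'⟩ := cg q0
  have d' := congrArg Θ.symm d
  simp only [map_sub, map_mul, map_pow, map_add, f0, AlgEquiv.symm_apply_apply] at d'
  refine ⟨-Θ.symm α - X 0 * k - X 0 * k' * Θ.symm β, -Θ.symm β, ?_⟩
  linear_combination -d' - X 0 ^ 2 * hk - X 0 ^ 2 * Θ.symm β * hk'

lemma Dfc.congr {Θ : R ≃ₐ[ℂ] R} {e e' : R} (h : Dfc Θ e) (a b : R)
    (hab : e = e' + X 0 * a + q0 * b) : Dfc Θ e' := by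
  refine ⟨h.fix0, h.cong, ?_⟩
  obtain ⟨α, β, d⟩ := h.dfc
  exact ⟨α + a, β + b, by rw [d, hab]; ring⟩

/-- congruence modulo `X 0 ^ 2` follows from the generators -/
lemma cong_of_gen (Θ : R ≃ₐ[ℂ] R) (h : ∀ i, (X 0 : R) ^ 2 ∣ Θ (X i) - X i) (f : R) :
    (X 0 : R) ^ 2 ∣ Θ f - f := by
  induction f using MvPolynomial.induction_on with
  | C a =>
    have : Θ (C a) = C a := Θ.commutes a
    rw [this]; simp
  | add f g hf hg =>
    have : Θ (f + g) - (f + g) = (Θ f - f) + (Θ g - g) := by rw [map_add]; ring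
    rw [this]; exact dvd_add hf hg
  | mul_X f i hf =>
    have : Θ (f * X i) - f * X i = Θ f * (Θ (X i) - X i) + (Θ f - f) * X i := by
      rw [map_mul]; ring
    rw [this]
    exact dvd_add (Dvd.dvd.mul_left (h i) _) (Dvd.dvd.mul_right hf _)

/-- the shear `X i ↦ X i + g` -/
def shear (i : Fin 4) (g : R) : R →ₐ[ℂ] R := aeval (fun j => if j = i then X i + g else X j)

lemma shear_self (i : Fin 4) (g : R) : shear i g (X i) = X i + g := by simp [shear]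

lemma shear_ne (i j : Fin 4) (g : R) (h : j ≠ i) : shear i g (X j) = X j := by simp [shear, h]

/-- `g` does not involve `X i` -/
def Indep (i : Fin 4) (g : R) : Prop := ∀ c : R, shear i c g = g

lemma shear_comp (i : Fin 4) (g : R) (hg : Indep i g) :
    (shear i (-g)).comp (shear i g) = AlgHom.id ℂ R := by
  apply MvPolynomial.algHom_ext
  intro j
  by_cases h : j = i
  · subst h
    simp [shear_self, hg (-g)]
  · simp [shear_ne _ _ _ h]

lemma Indep.neg {i : Fin 4} {g : R} (hg : Indep i g) : Indep i (-g) := fun c => by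
  rw [map_neg, hg c]

def shearEquiv (i : Fin 4) (g : R) (hg : Indep i g) : R ≃ₐ[ℂ] R :=
  AlgEquiv.ofAlgHom (shear i g) (shear i (-g))
    (by simpa using shear_comp i (-g) hg.neg) (shear_comp i g hg)

lemma shearEquiv_self (i : Fin 4) (g : R) (hg : Indep i g) :
    shearEquiv i g hg (X i) = X i + g := shear_self i g

lemma shearEquiv_ne (i j : Fin 4) (g : R) (hg : Indep i g) (h : j ≠ i) :
    shearEquiv i g hg (X j) = X j := shear_ne i j g h

lemma shearEquiv_indep (i : Fin 4) (g : R) (hg : Indep i g) (f : R) (hf : Indep i f) :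
    shearEquiv i g hg f = f := hf g

lemma Indep.X {i j : Fin 4} (h : j ≠ i) : Indep i (X j) := fun c => shear_ne i j c h
lemma Indep.C (i : Fin 4) (a : ℂ) : Indep i (C a) := fun c => by
  simp [shear]
lemma Indep.mul {i : Fin 4} {f g : R} (hf : Indep i f) (hg : Indep i g) : Indep i (f * g) :=
  fun c => by rw [map_mul, hf c, hg c]
lemma Indep.add {i : Fin 4} {f g : R} (hf : Indep i f) (hg : Indep i g) : Indep i (f + g) :=
  fun c => by rw [map_add, hf c, hg c]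
lemma Indep.pow {i : Fin 4} {f : R} (hf : Indep i f) (n : ℕ) : Indep i (f ^ n) :=
  fun c => by rw [map_pow, hf c]
lemma Indep.natCast (i : Fin 4) (n : ℕ) : Indep i ((n : ℕ) : R) := fun _ => map_natCast _ n
lemma Indep.one (i : Fin 4) : Indep i (1 : R) := fun _ => map_one _
lemma Indep.two (i : Fin 4) : Indep i (2 : R) := fun _ => map_ofNat _ 2
lemma Indep.aeval {i : Fin 4} {k : ℕ} (f : Fin k → R) (hf : ∀ j, Indep i (f j))
    (S : MvPolynomial (Fin k) ℂ) : Indep i (MvPolynomial.aeval f S) := fun c => by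
  rw [MvPolynomial.comp_aeval_apply]
  have : (fun j => shear i c (f j)) = f := by
    funext j
    have h := hf j
    unfold Indep at h
    exact h c
  rw [this]

lemma shearEquiv_symm_apply (i : Fin 4) (g : R) (hg : Indep i g) (f : R) :
    (shearEquiv i g hg).symm f = shear i (-g) f := rfl

/-- the defect `e` is realised by an automorphism fixing `X 0` and `X 1` -/
def Ach (e : R) : Prop := ∃ μ : R ≃ₐ[ℂ] R, μ (X 1) = X 1 ∧ Dfc μ e

lemma Ach.zero : Ach 0 := ⟨AlgEquiv.refl, rfl, Dfc.refl⟩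

lemma Ach.add {e₁ e₂ : R} (h₁ : Ach e₁) (h₂ : Ach e₂) : Ach (e₁ + e₂) := by
  obtain ⟨μ₁, a₁, d₁⟩ := h₁
  obtain ⟨μ₂, a₂, d₂⟩ := h₂
  exact ⟨μ₂.trans μ₁, by simp [a₁, a₂], d₁.trans d₂⟩

lemma Ach.congr {e e' : R} (h : Ach e) (a b : R) (hab : e = e' + X 0 * a + q0 * b) : Ach e' := by
  obtain ⟨μ, a₁, d₁⟩ := h
  exact ⟨μ, a₁, d₁.congr a b hab⟩

/-- shears in the `X 2` direction -/
lemma ach_shear2 (a : R) (ha : Indep 2 a) : Ach (2 * X 2 * a) := by
  have hg : Indep 2 (X 0 ^ 2 * a) := ((Indep.X (by decide)).pow 2).mul ha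
  refine ⟨shearEquiv 2 (X 0 ^ 2 * a) hg, shearEquiv_ne _ _ _ _ (by decide), ?_, ?_, ?_⟩
  · exact shearEquiv_ne _ _ _ _ (by decide)
  · apply cong_of_gen
    intro i
    by_cases h : i = 2
    · subst h
      rw [shearEquiv_self]
      exact ⟨a, by ring⟩
    · rw [shearEquiv_ne _ _ _ _ h]; simp
  · refine ⟨X 0 * a ^ 2, 0, ?_⟩
    simp only [q0, map_add, map_mul, map_pow, shearEquiv_self,
      shearEquiv_ne 2 1 _ hg (by decide), shearEquiv_ne 2 3 _ hg (by decide)]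
    ring

lemma taylor (a e : R) (n : ℕ) :
    ∃ k, (a + e) ^ (n + 1) = a ^ (n + 1) + (n + 1) * a ^ n * e + e ^ 2 * k := by
  induction n with
  | zero => exact ⟨0, by simp⟩
  | succ n ih =>
    obtain ⟨k, hk⟩ := ih
    refine ⟨(n + 1) * a ^ n + k * (a + e), ?_⟩
    rw [pow_succ, hk]
    push_cast
    ring

/-- conjugated shear: realises the Hamiltonian `(X 2 + h) ^ 2 / 2` -/
lemma ach_conj (c : ℂ) (m n : ℕ) :
    Ach ((X 2 + C c * X 1 ^ m * X 3 ^ (n + 1)) *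
      (X 1 - 2 * X 2 * ((C c : R) * ((n : R) + 1) * X 1 ^ m * X 3 ^ n))) := by
  set h : R := C c * X 1 ^ m * X 3 ^ (n + 1) with hh
  have hInd : Indep 2 h :=
    ((Indep.C 2 c).mul ((Indep.X (by decide)).pow m)).mul ((Indep.X (by decide)).pow (n + 1))
  have hρ : Indep 3 ((X 0 : R) ^ 2 * X 2) := ((Indep.X (by decide)).pow 2).mul (Indep.X (by decide))
  set σ := shearEquiv 2 h hInd with hσ
  set ρ := shearEquiv 3 ((X 0 : R) ^ 2 * X 2) hρ with hρdef
  set μ : R ≃ₐ[ℂ] R := (σ.symm.trans ρ).trans σ with hμ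
  have σ0 : σ (X 0) = X 0 := shearEquiv_ne _ _ _ _ (by decide)
  have σ1 : σ (X 1) = X 1 := shearEquiv_ne _ _ _ _ (by decide)
  have σ2 : σ (X 2) = X 2 + h := shearEquiv_self _ _ _
  have σ3 : σ (X 3) = X 3 := shearEquiv_ne _ _ _ _ (by decide)
  have s0 : σ.symm (X 0) = X 0 := by rw [AlgEquiv.symm_apply_eq, σ0]
  have s1 : σ.symm (X 1) = X 1 := by rw [AlgEquiv.symm_apply_eq, σ1]
  have s3 : σ.symm (X 3) = X 3 := by rw [AlgEquiv.symm_apply_eq, σ3]
  have s2 : σ.symm (X 2) = X 2 - h := by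
    rw [hσ, shearEquiv_symm_apply, shear_self]; ring
  have ρ0 : ρ (X 0) = X 0 := shearEquiv_ne _ _ _ _ (by decide)
  have ρ1 : ρ (X 1) = X 1 := shearEquiv_ne _ _ _ _ (by decide)
  have ρ2 : ρ (X 2) = X 2 := shearEquiv_ne _ _ _ _ (by decide)
  have ρ3 : ρ (X 3) = X 3 + X 0 ^ 2 * X 2 := shearEquiv_self _ _ _
  have ρC : ρ (C c) = C c := ρ.commutes c
  have σC : σ (C c) = C c := σ.commutes c
  set e : R := X 0 ^ 2 * (X 2 + h) with he
  obtain ⟨k, hk⟩ := taylor (X 3) e n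
  have μ0 : μ (X 0) = X 0 := by simp [hμ, s0, ρ0, σ0]
  have μ1 : μ (X 1) = X 1 := by simp [hμ, s1, ρ1, σ1]
  have μ3 : μ (X 3) = X 3 + e := by
    simp [hμ, s3, ρ3, σ0, σ2, σ3, he]
  have μ2 : μ (X 2) = X 2 - C c * X 1 ^ m * (((n : R) + 1) * X 3 ^ n * e + e ^ 2 * k) := by
    have : μ (X 2) = X 2 + h - C c * X 1 ^ m * (X 3 + e) ^ (n + 1) := by
      simp only [hμ, AlgEquiv.trans_apply, s2, map_sub, ρ2, σ2]
      rw [hh]
      simp only [map_mul, map_pow, ρC, σC, ρ1, σ1, ρ3, map_add, σ3, σ0, σ2]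
      rw [he, hh]
    rw [this, hk, hh]; ring
  refine ⟨μ, μ1, μ0, ?_, ?_⟩
  · apply cong_of_gen
    intro i
    fin_cases i
    · simp [μ0]
    · simp [μ1]
    · refine ⟨-(C c * X 1 ^ m * (((n : R) + 1) * X 3 ^ n * (X 2 + h)
        + X 0 ^ 2 * (X 2 + h) ^ 2 * k)), ?_⟩
      change μ (X 2) - X 2 = _
      rw [μ2, he]; ring
    · refine ⟨X 2 + h, ?_⟩
      change μ (X 3) - X 3 = _
      rw [μ3, he]; ring
  · have : μ q0 = X 1 * (X 3 + e) +
        (X 2 - C c * X 1 ^ m * (((n : R) + 1) * X 3 ^ n * e + e ^ 2 * k)) ^ 2 := by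
      simp only [q0, map_add, map_mul, map_pow, μ1, μ2, μ3]
    rw [this]
    refine ⟨X 0 * (-2 * X 2 * C c * X 1 ^ m * (X 2 + h) ^ 2 * k
      + (C c * X 1 ^ m * (((n : R) + 1) * X 3 ^ n * (X 2 + h)
        + X 0 ^ 2 * (X 2 + h) ^ 2 * k)) ^ 2), 0, ?_⟩
    rw [he, q0]; ring

lemma ach_even (a : ℂ) (m n : ℕ) : Ach (C a * X 1 ^ (m + 1) * X 3 ^ (n + 1)) := by
  set c : ℂ := a / (2 * n + 3) with hc
  have hne : (2 * (n : ℂ) + 3) ≠ 0 := by
    have : (2 * (n : ℂ) + 3) = ((2 * n + 3 : ℕ) : ℂ) := by push_cast; ring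
    rw [this]; exact Nat.cast_ne_zero.2 (by omega)
  have hca : (C a : R) = C c * (2 * (n : R) + 3) := by
    have h1 : a = c * (2 * n + 3) := by rw [hc]; field_simp
    have h2 : (2 * (n : R) + 3) = C (2 * (n : ℂ) + 3) := by
      rw [map_add, map_mul, map_natCast, map_ofNat, map_ofNat]
    rw [h2, ← C_mul, ← h1]
  set h : R := C c * X 1 ^ m * X 3 ^ (n + 1) with hh
  set h' : R := C c * ((n : R) + 1) * X 1 ^ m * X 3 ^ n with hh'
  have hI : Indep 2 (-(C (1 / 2 : ℂ)) * (X 1 - 2 * h * h')) := by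
    have i1 : Indep 2 (X 1 : R) := Indep.X (by decide)
    have i3 : Indep 2 (X 3 : R) := Indep.X (by decide)
    have ih : Indep 2 h := ((Indep.C 2 c).mul (i1.pow m)).mul (i3.pow (n + 1))
    have in1 : Indep 2 ((n : R) + 1) := (Indep.natCast 2 n).add (Indep.one 2)
    have ih' : Indep 2 h' := (((Indep.C 2 c).mul in1).mul (i1.pow m)).mul (i3.pow n)
    have i2 : Indep 2 (2 : R) := Indep.two 2
    have : X 1 - 2 * h * h' = X 1 + -(2 * h * h') := by ring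
    rw [this]
    exact (Indep.C 2 _).neg.mul (i1.add ((i2.mul ih).mul ih').neg)
  have A := (ach_conj c m n).add (ach_shear2 _ hI)
  refine A.congr 0 (-2 * h') ?_
  have h12 : (2 : R) * C (1 / 2 : ℂ) = 1 := by
    have : (2 : R) = C (2 : ℂ) := (map_ofNat C 2).symm
    rw [this, ← C_mul]; norm_num
  rw [hca, q0]
  simp only [← hh, ← hh']
  have e1 : 2 * X 2 * (-(C (1 / 2 : ℂ)) * (X 1 - 2 * h * h')) = -(X 2 * (X 1 - 2 * h * h')) := by
    linear_combination (-(X 2 * (X 1 - 2 * h * h'))) * h12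
  rw [e1, hh, hh']
  ring

lemma ach_odd (a : ℂ) (m n : ℕ) : Ach (C a * X 2 * X 1 ^ m * X 3 ^ n) := by
  have hI : Indep 2 (C (a / 2) * X 1 ^ m * X 3 ^ n) :=
    ((Indep.C 2 _).mul ((Indep.X (by decide)).pow m)).mul ((Indep.X (by decide)).pow n)
  refine (ach_shear2 _ hI).congr 0 0 ?_
  have : (C a : R) = 2 * C (a / 2) := by
    have h2 : (2 : R) = C (2 : ℂ) := (map_ofNat C 2).symm
    rw [h2, ← C_mul]; congr 1; ring
  rw [this]; ring

lemma sq_pow_congr (i : ℕ) : ∃ b : R, ((X 2 : R) ^ 2) ^ i = (-(X 1 * X 3)) ^ i + q0 * b := by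
  obtain ⟨b, hb⟩ := sub_dvd_pow_sub_pow ((X 2 : R) ^ 2) (-(X 1 * X 3)) i
  refine ⟨b, ?_⟩
  have : (X 2 : R) ^ 2 - -(X 1 * X 3) = q0 := by rw [q0]; ring
  rw [this] at hb
  linear_combination hb

lemma ach_monomial (a : ℂ) (l j k : ℕ) :
    Ach (C a * X 0 ^ l * X 2 ^ (j + 1) * X 3 ^ (k + 1)) := by
  cases l with
  | succ l =>
    refine Ach.zero.congr (-(C a * X 0 ^ l * X 2 ^ (j + 1) * X 3 ^ (k + 1))) 0 ?_
    ring
  | zero =>
    rcases Nat.even_or_odd' j with ⟨i, rfl | rfl⟩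
    · obtain ⟨b, hb⟩ := sq_pow_congr i
      refine (ach_odd (a * (-1) ^ i) i (i + k + 1)).congr 0 (-(C a * X 2 * X 3 ^ (k + 1) * b)) ?_
      have e1 : (X 2 : R) ^ (2 * i + 1) = (X 2 ^ 2) ^ i * X 2 := by ring
      have e2 : (C (a * (-1) ^ i) : R) = C a * (-1) ^ i := by
        rw [C_mul, map_pow, map_neg, map_one]
      rw [e1, hb, e2]
      ring
    · obtain ⟨b, hb⟩ := sq_pow_congr (i + 1)
      refine (ach_even (a * (-1) ^ (i + 1)) i (i + k + 1)).congr 0 (-(C a * X 3 ^ (k + 1) * b)) ?_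
      have e1 : (X 2 : R) ^ (2 * i + 1 + 1) = (X 2 ^ 2) ^ (i + 1) := by ring
      have e2 : (C (a * (-1) ^ (i + 1)) : R) = C a * (-1) ^ (i + 1) := by
        rw [C_mul, map_pow, map_neg, map_one]
      rw [e1, hb, e2]
      ring

lemma ach_poly (S : MvPolynomial (Fin 3) ℂ) :
    Ach (X 2 * aeval ![(X 0 : R), X 2, X 3] S * X 3) := by
  induction S using MvPolynomial.induction_on' with
  | monomial d a =>
    have := ach_monomial a (d 0) (d 1) (d 2)
    refine this.congr 0 0 ?_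
    rw [aeval_monomial, Finsupp.prod_fintype _ _ (fun i => pow_zero _), Fin.prod_univ_three]
    simp only [Matrix.cons_val_zero, Matrix.cons_val_one, Matrix.cons_val,
      MvPolynomial.algebraMap_eq]
    ring
  | add S T hS hT =>
    refine (hS.add hT).congr 0 0 ?_
    rw [map_add]; ring

lemma ev_aeval (S : MvPolynomial (Fin 3) ℂ) :
    ev (aeval ![(X 0 : R), X 2, X 3] S) = aeval ![x, v, w] S := by
  rw [MvPolynomial.comp_aeval_apply]
  have : (fun i => ev (![(X 0 : R), X 2, X 3] i)) = ![x, v, w] := by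
    funext i
    fin_cases i
    · exact ev0
    · exact ev2
    · exact ev3
  rw [this]

/-- For every `S` in the ideal `(x ^ 2 * v, x ^ 3)` of `ℂ[x, v, w]`, the polynomial `y + S(x, v, w)`
is the image of the variable `y` under a `ℂ[x]`-automorphism of `ℂ[x, y, z, u]`. -/
theorem result (S₁ S₂ : MvPolynomial (Fin 3) ℂ) :
    ∃ φ : MvPolynomial (Fin 4) ℂ ≃ₐ[ℂ] MvPolynomial (Fin 4) ℂ,
      φ (X 0) = X 0 ∧
      φ (X 1) = y + x ^ 2 * v * aeval ![x, v, w] S₁ + x ^ 3 * aeval ![x, v, w] S₂ := by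
  set A₁ : R := aeval ![(X 0 : R), X 2, X 3] S₁ with hA₁
  set A₂ : R := aeval ![(X 0 : R), X 2, X 3] S₂ with hA₂
  have iA : ∀ S : MvPolynomial (Fin 3) ℂ, Indep 1 (aeval ![(X 0 : R), X 2, X 3] S) := by
    intro S
    apply Indep.aeval
    intro j
    fin_cases j
    · exact Indep.X (by decide)
    · exact Indep.X (by decide)
    · exact Indep.X (by decide)
  have i0 : Indep 1 (X 0 : R) := Indep.X (by decide)
  have i2 : Indep 1 (X 2 : R) := Indep.X (by decide)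
  have hg : Indep 1 (X 0 ^ 2 * (X 2 * A₁ + X 0 * A₂)) :=
    (i0.pow 2).mul ((i2.mul (iA S₁)).add (i0.mul (iA S₂)))
  set τ := shearEquiv 1 (X 0 ^ 2 * (X 2 * A₁ + X 0 * A₂)) hg with hτ
  have τ0 : τ (X 0) = X 0 := shearEquiv_ne _ _ _ _ (by decide)
  have τ1 : τ (X 1) = X 1 + X 0 ^ 2 * (X 2 * A₁ + X 0 * A₂) := shearEquiv_self _ _ _
  have τ2 : τ (X 2) = X 2 := shearEquiv_ne _ _ _ _ (by decide)
  have τ3 : τ (X 3) = X 3 := shearEquiv_ne _ _ _ _ (by decide)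
  have dτ : Dfc τ ((X 2 * A₁ + X 0 * A₂) * X 3) := by
    refine ⟨τ0, ?_, ⟨0, 0, ?_⟩⟩
    · apply cong_of_gen
      intro i
      fin_cases i
      · simp [τ0]
      · exact ⟨X 2 * A₁ + X 0 * A₂, by change τ (X 1) - X 1 = _; rw [τ1]; ring⟩
      · simp [τ2]
      · simp [τ3]
    · simp only [q0, map_add, map_mul, map_pow, τ1, τ2, τ3]
      ring
  obtain ⟨μ, μ1, dμ⟩ := ach_poly (-S₁)
  have dΘ : Dfc (μ.trans τ) 0 := by
    refine (dτ.trans dμ).congr (A₂ * X 3) 0 ?_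
    rw [map_neg, ← hA₁]; ring
  have dΘ' : Dfc (μ.trans τ).symm 0 := by simpa using dΘ.symm
  obtain ⟨φ, φx, φy⟩ := exists_equiv dΘ dΘ'
  refine ⟨φ, φx, ?_⟩
  change φ y = _
  rw [φy, AlgEquiv.trans_apply, μ1, τ1]
  simp only [map_add, map_mul, map_pow, ev0, ev1, ev2, hA₁, hA₂, ev_aeval]
  ring

end

end Vale.Agent.Results.P295.VenereauIdeal
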